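import Mathlib

/-!
# Auslander-Reiten condition and finite projective dimension

Over a left noetherian ring `A`, a finitely generated module `M` of finite projective dimension
with `Ext^i(M, A) = 0` for all `i ≥ 1` is projective.
-/

namespace Vale.Agent.Lib.P195

open CategoryTheory Abelian Limits

universe w v u

section Abstract

variable {C : Type u} [Category.{v} C] [Abelian C] [HasExt.{w} C]

/-- If the identity of `Q` is a finite sum of maps factoring through objects `B j` with
`Ext^i(X, B j) = 0`, then `Ext^i(X, Q) = 0`. -/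
theorem ext_eq_zero_of_sum {X Q : C} {i : ℕ} {ι : Type} (s : Finset ι) (B : ι → C)
    (p : ∀ j, Q ⟶ B j) (q : ∀ j, B j ⟶ Q) (h : ∑ j ∈ s, p j ≫ q j = 𝟙 Q)
    (h0 : ∀ j ∈ s, ∀ e : Ext X (B j) i, e = 0) (e : Ext X Q i) : e = 0 := by
  classical
  have key : ∀ t : Finset ι, t ⊆ s →
      e.comp (Ext.mk₀ (∑ j ∈ t, p j ≫ q j)) (add_zero i) = 0 := by
    intro t
    induction t using Finset.induction_on with
    | empty => intro _; simp
    | insert a t ha ih =>
      intro hsub
      rw [Finset.sum_insert ha, Ext.mk₀_add, Ext.comp_add,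
        ih (fun x hx => hsub (Finset.mem_insert_of_mem hx)), add_zero, ← Ext.mk₀_comp_mk₀,
        ← Ext.comp_assoc_of_second_deg_zero,
        h0 a (hsub (Finset.mem_insert_self a t)) (e.comp (Ext.mk₀ (p a)) (add_zero i)),
        Ext.zero_comp]
  have := key s subset_rfl
  rwa [h, Ext.comp_mk₀_id] at this

end Abstract

section Modules

variable {A : Type u} [Ring A]

/-- `Ext` into a free module of finite rank vanishes if `Ext` into `A` does. -/
theorem ext_free_eq_zero (X : ModuleCat.{u} A) (i : ℕ)
    (h0 : ∀ e : Ext.{u} X (ModuleCat.of A A) i, e = 0) (k : ℕ)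
    (e : Ext.{u} X (ModuleCat.of A (Fin k → A)) i) : e = 0 := by
  refine ext_eq_zero_of_sum Finset.univ (fun _ : Fin k => ModuleCat.of A A)
    (fun j => ModuleCat.ofHom (LinearMap.proj j))
    (fun j => ModuleCat.ofHom (LinearMap.single A (fun _ : Fin k => A) j)) ?_
    (fun j _ => h0) e
  ext x l
  simp [Finset.sum_apply, Pi.single_apply]

/-- `Ext` into a finitely generated projective module vanishes if `Ext` into `A` does. -/
theorem ext_fgProjective_eq_zero (X : ModuleCat.{u} A) (i : ℕ)
    (h0 : ∀ e : Ext.{u} X (ModuleCat.of A A) i, e = 0)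
    (P : Type u) [AddCommGroup P] [Module A P] [Module.Finite A P] [Module.Projective A P]
    (e : Ext.{u} X (ModuleCat.of A P) i) : e = 0 := by
  obtain ⟨k, f, hf⟩ := Module.Finite.exists_fin' A P
  obtain ⟨g, hg⟩ := Module.projective_lifting_property f LinearMap.id hf
  refine ext_eq_zero_of_sum ({()} : Finset Unit) (fun _ => ModuleCat.of A (Fin k → A))
    (fun _ => ModuleCat.ofHom g) (fun _ => ModuleCat.ofHom f) ?_
    (fun _ _ => ext_free_eq_zero X i h0 k) e
  rw [Finset.sum_singleton, ← ModuleCat.ofHom_comp, hg]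
  rfl

/-- Main induction: finitely generated, projective dimension `≤ n`, and `Ext^i(M, A) = 0` for
all `i ≥ 1` imply projective. -/
theorem projective_of_hasProjectiveDimensionLT [IsNoetherianRing A] :
    ∀ (n : ℕ) (M : Type u) [AddCommGroup M] [Module A M] [Module.Finite A M],
      HasProjectiveDimensionLT (ModuleCat.of A M) (n + 1) →
      (∀ i : ℕ, 1 ≤ i → ∀ e : Ext.{u} (ModuleCat.of A M) (ModuleCat.of A A) i, e = 0) →
      Module.Projective A M := by
  intro n
  induction n with
  | zero =>
    intro M _ _ _ hpd _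
    have : Projective (ModuleCat.of A M) :=
      projective_iff_hasProjectiveDimensionLT_one.mpr hpd
    exact (IsProjective.iff_projective M).mpr this
  | succ n ih =>
    intro M _ _ _ hpd hExt
    obtain ⟨k, f, hf⟩ := Module.Finite.exists_fin' A M
    have hS := LinearMap.shortExact_shortComplexKer hf
    -- the free module is projective
    have hfree : Projective (ModuleCat.of A (Fin k → A)) :=
      (IsProjective.iff_projective (Fin k → A)).mp inferInstance
    have h2 : HasProjectiveDimensionLT f.shortComplexKer.X₂ (n + 1) := by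
      have h1 : HasProjectiveDimensionLT (ModuleCat.of A (Fin k → A)) 1 :=
        projective_iff_hasProjectiveDimensionLT_one.mp hfree
      exact hasProjectiveDimensionLT_of_ge _ 1 (n + 1) (by omega)
    have hKpd : HasProjectiveDimensionLT (ModuleCat.of A (LinearMap.ker f)) (n + 1) :=
      hS.hasProjectiveDimensionLT_X₁ (n + 1) h2 hpd
    have hKext : ∀ i : ℕ, 1 ≤ i →
        ∀ e : Ext.{u} (ModuleCat.of A (LinearMap.ker f)) (ModuleCat.of A A) i, e = 0 := by
      intro i hi x₁
      obtain ⟨j, rfl⟩ : ∃ j, i = j + 1 := ⟨i - 1, by omega⟩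
      obtain ⟨x₂, rfl⟩ := Ext.contravariant_sequence_exact₁ hS (ModuleCat.of A A) x₁
        (add_comm 1 (j + 1)) (hExt (j + 1 + 1) (by omega) _)
      have hx₂ : x₂ = 0 := by
        have := hfree
        exact Ext.eq_zero_of_projective x₂
      rw [hx₂, Ext.comp_zero]
    have hKproj : Module.Projective A (LinearMap.ker f) := ih (LinearMap.ker f) hKpd hKext
    -- the sequence splits
    have hExt1 : ∀ e : Ext.{u} (ModuleCat.of A M) (ModuleCat.of A (LinearMap.ker f)) 1, e = 0 :=
      ext_fgProjective_eq_zero (ModuleCat.of A M) 1 (hExt 1 le_rfl) (LinearMap.ker f)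
    obtain ⟨x₂, hx₂⟩ := Ext.covariant_sequence_exact₃ (ModuleCat.of A M) hS
      (Ext.mk₀ (𝟙 (ModuleCat.of A M))) (zero_add 1) (hExt1 _)
    have hs : Ext.homEquiv₀ x₂ ≫ f.shortComplexKer.g = 𝟙 (ModuleCat.of A M) := by
      apply Ext.homEquiv₀.symm.injective
      rw [Ext.homEquiv₀_symm_apply, Ext.homEquiv₀_symm_apply, ← Ext.mk₀_comp_mk₀,
        Ext.mk₀_homEquiv₀_apply]
      exact hx₂
    have hsplit : f.comp (Ext.homEquiv₀ x₂).hom = LinearMap.id := by
      have := congrArg ModuleCat.Hom.hom hs
      simpa using this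
    exact Module.Projective.of_split (Ext.homEquiv₀ x₂).hom f hsplit

end Modules

end Vale.Agent.Lib.P195
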